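import Vale.Agent.P328b.Defs

/-! # P328: average of a column of the small rows -/

namespace Vale.Agent.P328b

open Finset

theorem avg_swap (m n : ℕ) (s : Fin m → ℕ) (j l : Fin n) :
    ∑ Y ∈ Fintype.piFinset (fun k : Fin m => comps n (s k)), ∑ k, Y k j =
      ∑ Y ∈ Fintype.piFinset (fun k : Fin m => comps n (s k)), ∑ k, Y k l := by
  have hm : ∀ Y ∈ Fintype.piFinset (fun k : Fin m => comps n (s k)),
      (fun k => Y k ∘ Equiv.swap j l) ∈ Fintype.piFinset (fun k : Fin m => comps n (s k)) := by
    intro Y hY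
    rw [Fintype.mem_piFinset] at hY ⊢
    intro k
    have h := hY k
    rw [mem_comps] at h ⊢
    rw [← h]
    exact Equiv.sum_comp (Equiv.swap j l) (Y k)
  refine Finset.sum_nbij' (fun Y => fun k => Y k ∘ Equiv.swap j l)
    (fun Y => fun k => Y k ∘ Equiv.swap j l) hm hm ?_ ?_ ?_
  · intro Y _
    funext k i
    simp
  · intro Y _
    funext k i
    simp
  · intro Y _
    simp

/-- by symmetry of the columns each column of a free small row has average `s k / n` -/
theorem avg (m n : ℕ) (s : Fin m → ℕ) (j : Fin n) :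
    n * ∑ Y ∈ Fintype.piFinset (fun k : Fin m => comps n (s k)), ∑ k, Y k j =
      (∑ k, s k) * (Fintype.piFinset (fun k : Fin m => comps n (s k))).card := by
  have h1 : ∑ l : Fin n, ∑ Y ∈ Fintype.piFinset (fun k : Fin m => comps n (s k)), ∑ k, Y k l =
      n * ∑ Y ∈ Fintype.piFinset (fun k : Fin m => comps n (s k)), ∑ k, Y k j := by
    rw [Finset.sum_congr rfl (fun l _ => avg_swap m n s l j), Finset.sum_const,
      Finset.card_univ, Fintype.card_fin, smul_eq_mul]
  rw [← h1, Finset.sum_comm]
  have h3 : ∀ Y ∈ Fintype.piFinset (fun k : Fin m => comps n (s k)),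
      ∑ l : Fin n, ∑ k, Y k l = ∑ k, s k := by
    intro Y hY
    rw [Fintype.mem_piFinset] at hY
    rw [Finset.sum_comm]
    exact Finset.sum_congr rfl fun k _ => (mem_comps _ _ _).1 (hY k)
  rw [Finset.sum_congr rfl h3, Finset.sum_const, smul_eq_mul, mul_comm]

end Vale.Agent.P328b
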