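import Vale.Agent.P328b.Defs

/-! # P328: accepted proposals are in bijection with the tables (TASK P328-BIJ) -/

namespace Vale.Agent.P328b

open Finset

theorem mem_accepted {m n : ℕ} (r : Fin (m + 2) → ℕ) (c : Fin n → ℕ)
    (p : (Fin 2 → Fin n → ℕ) × (Fin m → Fin n → ℕ)) :
    p ∈ accepted r c ↔ ((∑ j, p.1 0 j = r 0 ∧ ∑ j, p.1 1 j = r 1 + ∑ k : Fin m, r k.succ.succ) ∧
      (∀ j, p.1 0 j + p.1 1 j = c j)) ∧ (∀ k, ∑ j, p.2 k j = r k.succ.succ) ∧
      ∀ j, ∑ k, p.2 k j ≤ p.1 1 j := by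
  unfold accepted proposals
  rw [mem_filter, mem_product, mem_tables, Fintype.mem_piFinset]
  simp only [mem_comps, Fin.forall_fin_two, Fin.sum_univ_two, Matrix.cons_val_zero,
    Matrix.cons_val_one]
  tauto

theorem merge_zero {m n : ℕ} (p : (Fin 2 → Fin n → ℕ) × (Fin m → Fin n → ℕ)) :
    merge p 0 = p.1 0 := rfl

theorem merge_one {m n : ℕ} (p : (Fin 2 → Fin n → ℕ) × (Fin m → Fin n → ℕ)) :
    merge p 1 = fun j => p.1 1 j - ∑ k, p.2 k j := rfl

theorem merge_succ {m n : ℕ} (p : (Fin 2 → Fin n → ℕ) × (Fin m → Fin n → ℕ)) (k : Fin m) :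
    merge p k.succ.succ = p.2 k := rfl

theorem merge_bijOn {m n : ℕ} (r : Fin (m + 2) → ℕ) (c : Fin n → ℕ)
    (h : ∑ i, r i = ∑ j, c j) :
    Set.BijOn merge (accepted r c : Set ((Fin 2 → Fin n → ℕ) × (Fin m → Fin n → ℕ)))
      (tables r c : Set (Fin (m + 2) → Fin n → ℕ)) := by
  refine ⟨?_, ?_, ?_⟩
  · intro p hp
    rw [mem_coe, mem_accepted] at hp
    obtain ⟨⟨⟨h1, h2⟩, h3⟩, h4, h5⟩ := hp
    rw [mem_coe, mem_tables]
    constructor
    · intro i
      refine Fin.cases ?_ (fun i => Fin.cases ?_ (fun k => ?_) i) i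
      · rw [merge_zero]; exact h1
      · show ∑ j, merge p 1 j = r 1
        rw [merge_one]
        have h6 : ∑ j, (p.1 1 j - ∑ k, p.2 k j) + ∑ j, ∑ k, p.2 k j = ∑ j, p.1 1 j := by
          rw [← sum_add_distrib]
          exact sum_congr rfl fun j _ => Nat.sub_add_cancel (h5 j)
        have h7 : ∑ j, ∑ k, p.2 k j = ∑ k : Fin m, r k.succ.succ := by
          rw [sum_comm]
          exact sum_congr rfl fun k _ => h4 k
        show ∑ j, (p.1 1 j - ∑ k, p.2 k j) = r 1
        omega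
      · rw [merge_succ]; exact h4 k
    · intro j
      rw [Fin.sum_univ_succ, Fin.sum_univ_succ]
      show p.1 0 j + ((p.1 1 j - ∑ k, p.2 k j) + ∑ k, p.2 k j) = c j
      rw [Nat.sub_add_cancel (h5 j)]
      exact h3 j
  · intro p hp q hq hpq
    rw [mem_coe, mem_accepted] at hp hq
    obtain ⟨⟨⟨h1, h2⟩, h3⟩, h4, h5⟩ := hp
    obtain ⟨⟨⟨h1', h2'⟩, h3'⟩, h4', h5'⟩ := hq
    have e0 : p.1 0 = q.1 0 := by rw [← merge_zero p, hpq, merge_zero q]
    have e2 : p.2 = q.2 := by
      funext k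
      rw [← merge_succ p, hpq, merge_succ q]
    have e1 : p.1 1 = q.1 1 := by
      funext j
      have h6 := h3 j
      have h7 := h3' j
      rw [e0] at h6
      omega
    have e : p.1 = q.1 := by
      funext i
      refine Fin.cases e0 (fun i => ?_) i
      have : i = 0 := Subsingleton.elim _ _
      subst this
      exact e1
    exact Prod.ext e e2
  · intro X hX
    rw [mem_coe, mem_tables] at hX
    obtain ⟨h1, h2⟩ := hX
    refine ⟨(![X 0, fun j => X 1 j + ∑ k : Fin m, X k.succ.succ j], fun k => X k.succ.succ), ?_, ?_⟩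
    · rw [mem_coe, mem_accepted]
      refine ⟨⟨⟨?_, ?_⟩, ?_⟩, ?_, ?_⟩
      · exact h1 0
      · show ∑ j, (X 1 j + ∑ k : Fin m, X k.succ.succ j) = _
        rw [sum_add_distrib, h1 1, sum_comm]
        congr 1
        exact sum_congr rfl fun k _ => h1 _
      · intro j
        show X 0 j + (X 1 j + ∑ k : Fin m, X k.succ.succ j) = c j
        have := h2 j
        rw [Fin.sum_univ_succ, Fin.sum_univ_succ] at this
        exact this
      · intro k
        exact h1 _
      · intro j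
        show ∑ k : Fin m, X k.succ.succ j ≤ X 1 j + ∑ k : Fin m, X k.succ.succ j
        omega
    · funext i
      refine Fin.cases ?_ (fun i => Fin.cases ?_ (fun k => ?_) i) i
      · rfl
      · funext j
        show X 1 j + ∑ k : Fin m, X k.succ.succ j - ∑ k : Fin m, X k.succ.succ j = X 1 j
        omega
      · rfl

end Vale.Agent.P328b
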