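import Vale.Agent.P328b.Defs

/-! # P328: unimodality of the number of capped compositions, and its consequences -/

namespace Vale.Agent.P328b

open Finset Polynomial

/-- `1 + X + ... + X^b` -/
noncomputable def G (b : ℕ) : ℕ[X] := ∑ u ∈ range (b + 1), X ^ u

/-- coefficient with an integer index -/
noncomputable def cz (p : ℕ[X]) (s : ℤ) : ℕ := if 0 ≤ s then p.coeff s.toNat else 0

theorem cz_X_mul (p : ℕ[X]) (u : ℕ) (s : ℤ) : cz (X ^ u * p) s = cz p (s - u) := by
  unfold cz
  by_cases h : 0 ≤ s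
  · rw [if_pos h, coeff_X_pow_mul']
    by_cases h2 : u ≤ s.toNat
    · rw [if_pos h2, if_pos (by omega)]
      congr 1
      omega
    · rw [if_neg h2, if_neg (by omega)]
  · rw [if_neg h, if_neg (by omega)]

theorem cz_sum {ι : Type*} (T : Finset ι) (f : ι → ℕ[X]) (s : ℤ) :
    cz (∑ i ∈ T, f i) s = ∑ i ∈ T, cz (f i) s := by
  unfold cz
  by_cases h : 0 ≤ s
  · simp only [if_pos h, finsetSum_coeff]
  · simp [if_neg h]

theorem cz_G_mul (b : ℕ) (p : ℕ[X]) (s : ℤ) :
    cz (G b * p) s = ∑ u ∈ range (b + 1), cz p (s - u) := by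
  unfold G
  rw [sum_mul, cz_sum]
  exact sum_congr rfl fun u _ => cz_X_mul p u s

/-- the coefficients decrease with the distance to `S / 2` -/
def SU (p : ℕ[X]) (S : ℤ) : Prop := ∀ s t : ℤ, |2 * s - S| ≤ |2 * t - S| → cz p t ≤ cz p s

theorem SU_one : SU 1 0 := by
  intro s t h
  unfold cz
  by_cases ht : t = 0
  · subst ht
    have : s = 0 := by
      have h1 := abs_nonneg (2 * s - 0)
      have h2 : |2 * s - 0| = 0 := by
        apply le_antisymm _ h1
        simpa using h
      have := abs_eq_zero.1 h2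
      omega
    subst this
    exact le_refl _
  · by_cases h0 : 0 ≤ t
    · rw [if_pos h0, coeff_one, if_neg (by omega)]
      exact Nat.zero_le _
    · rw [if_neg h0]
      exact Nat.zero_le _

theorem SU_step (p : ℕ[X]) (S : ℤ) (hp : SU p S) (b : ℕ) : SU (G b * p) (S + b) := by
  have hsym : ∀ s, cz p (S - s) = cz p s := by
    intro s
    have e : |2 * (S - s) - S| = |2 * s - S| := by
      rw [show 2 * (S - s) - S = -(2 * s - S) by ring, abs_neg]
    exact le_antisymm (hp _ _ e.ge) (hp _ _ e.le)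
  have gsym : ∀ s, cz (G b * p) (S + b - s) = cz (G b * p) s := by
    intro s
    rw [cz_G_mul, cz_G_mul, ← sum_range_reflect]
    refine sum_congr rfl fun u hu => ?_
    rw [mem_range] at hu
    rw [← hsym]
    congr 1
    have : ((b + 1 - 1 - u : ℕ) : ℤ) = b - u := by omega
    rw [this]
    ring
  have gstep : ∀ s : ℤ, 2 * s + 1 ≤ S + b → cz (G b * p) s ≤ cz (G b * p) (s + 1) := by
    intro s hs
    rw [cz_G_mul, cz_G_mul, sum_range_succ, sum_range_succ']
    have e1 : ∑ u ∈ range b, cz p (s + 1 - ((u + 1 : ℕ) : ℤ)) =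
        ∑ u ∈ range b, cz p (s - u) := by
      refine sum_congr rfl fun u _ => ?_
      congr 1
      push_cast
      ring
    rw [e1]
    have e2 : cz p (s - b) ≤ cz p (s + 1 - ((0 : ℕ) : ℤ)) := by
      apply hp
      rw [abs_le]
      have h1 : |2 * (s - b) - S| = -(2 * (s - b) - S) := abs_of_nonpos (by omega)
      rw [h1]
      constructor <;> push_cast <;> omega
    omega
  have gchain : ∀ (k : ℕ) (t : ℤ), 2 * (t + k) ≤ S + b →
      cz (G b * p) t ≤ cz (G b * p) (t + k) := by
    intro k
    induction k with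
    | zero => intro t _; simp
    | succ k ih =>
      intro t ht
      have h1 := ih t (by push_cast at ht; omega)
      have h2 := gstep (t + k) (by push_cast at ht; omega)
      refine h1.trans (h2.trans (le_of_eq ?_))
      congr 1
      push_cast
      ring
  have gmono : ∀ s t : ℤ, t ≤ s → 2 * s ≤ S + b → cz (G b * p) t ≤ cz (G b * p) s := by
    intro s t hts hs
    have h := gchain (s - t).toNat t (by omega)
    have e : t + ((s - t).toNat : ℤ) = s := by omega
    rwa [e] at h
  intro s t hst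
  have key : ∀ x : ℤ, ∃ y : ℤ, 2 * y ≤ S + b ∧ cz (G b * p) x = cz (G b * p) y ∧
      |2 * x - (S + b)| = S + b - 2 * y := by
    intro x
    by_cases hx : 2 * x ≤ S + b
    · refine ⟨x, hx, rfl, ?_⟩
      rw [abs_of_nonpos (by omega)]
      ring
    · refine ⟨S + b - x, by omega, (gsym x).symm, ?_⟩
      rw [abs_of_nonneg (by omega)]
      ring
  obtain ⟨s', hs1, hs2, hs3⟩ := key s
  obtain ⟨t', ht1, ht2, ht3⟩ := key t
  rw [hs2, ht2]
  apply gmono _ _ _ hs1
  rw [hs3, ht3] at hst
  omega

theorem SU_prod {ι : Type*} [DecidableEq ι] (T : Finset ι) (b : ι → ℕ) :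
    SU (∏ j ∈ T, G (b j)) ((∑ j ∈ T, b j : ℕ) : ℤ) := by
  induction T using Finset.induction_on with
  | empty => simpa using SU_one
  | insert i T hi ih =>
    rw [prod_insert hi, sum_insert hi]
    have h := SU_step _ _ ih (b i)
    have e : (((b i + ∑ j ∈ T, b j : ℕ)) : ℤ) = ((∑ j ∈ T, b j : ℕ) : ℤ) + (b i : ℤ) := by
      push_cast
      ring
    rw [e]
    exact h

/-- number of vectors of sum `a` below the caps `b`, as a coefficient -/
noncomputable def N {n : ℕ} (b : Fin n → ℕ) (a : ℕ) : ℕ := (∏ j, G (b j)).coeff a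

theorem N_eq_card {n : ℕ} (b : Fin n → ℕ) (a : ℕ) :
    N b a = ((Fintype.piFinset fun j => range (b j + 1)).filter fun x => ∑ j, x j = a).card := by
  unfold N G
  rw [prod_univ_sum, finsetSum_coeff, card_filter]
  refine sum_congr rfl fun x _ => ?_
  rw [prod_pow_eq_pow_sum, coeff_X_pow]
  by_cases h : ∑ j, x j = a
  · rw [if_pos h.symm, if_pos h]
  · rw [if_neg (Ne.symm h), if_neg h]

theorem cz_nat (p : ℕ[X]) (a : ℕ) : cz p (a : ℤ) = p.coeff a := by
  unfold cz
  rw [if_pos (by omega)]
  simp

/-- removing one unit from the cap of a column loses at most a `1/(b i + 1)` fraction -/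
theorem unit_step {n : ℕ} (b : Fin n → ℕ) (a : ℕ) (i : Fin n) (hi : 1 ≤ b i)
    (ha : 2 * a ≤ ∑ j, b j) :
    N b a * b i ≤ N (Function.update b i (b i - 1)) a * (b i + 1) := by
  set P := ∏ j ∈ univ.erase i, G (b j) with hP
  have h1 : ∏ j, G (b j) = G (b i) * P := (mul_prod_erase univ (fun j => G (b j)) (mem_univ i)).symm
  have h2 : ∏ j, G (Function.update b i (b i - 1) j) = G (b i - 1) * P := by
    rw [← mul_prod_erase univ (fun j => G (Function.update b i (b i - 1) j)) (mem_univ i)]
    rw [Function.update_self]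
    congr 1
    refine prod_congr rfl fun j hj => ?_
    rw [Function.update_of_ne (ne_of_mem_erase hj)]
  have hSU := SU_prod (univ.erase i) b
  rw [← hP] at hSU
  have hS : ∑ j, b j = b i + ∑ j ∈ univ.erase i, b j :=
    (add_sum_erase univ b (mem_univ i)).symm
  have e1 : N b a = ∑ u ∈ range (b i + 1), cz P (a - u) := by
    unfold N
    rw [h1, ← cz_nat, cz_G_mul]
  have e2 : N (Function.update b i (b i - 1)) a = ∑ u ∈ range (b i), cz P (a - u) := by
    unfold N
    rw [h2, ← cz_nat, cz_G_mul, Nat.sub_add_cancel hi]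
  have e3 : N b a = N (Function.update b i (b i - 1)) a + cz P (a - (b i : ℕ)) := by
    rw [e1, e2, sum_range_succ]
  have e4 : (b i + 1) * cz P (a - (b i : ℕ)) ≤ N b a := by
    rw [e1]
    calc (b i + 1) * cz P (a - (b i : ℕ)) = ∑ u ∈ range (b i + 1), cz P (a - (b i : ℕ)) := by
          rw [sum_const, card_range, smul_eq_mul]
      _ ≤ _ := by
          refine sum_le_sum fun u hu => ?_
          rw [mem_range] at hu
          apply hSU
          have h3 : |2 * ((a : ℤ) - (b i : ℕ)) - ((∑ j ∈ univ.erase i, b j : ℕ) : ℤ)| =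
              -(2 * ((a : ℤ) - (b i : ℕ)) - ((∑ j ∈ univ.erase i, b j : ℕ) : ℤ)) := by
            apply abs_of_nonpos
            omega
          rw [h3, abs_le]
          constructor <;> omega
  nlinarith

/-- removing `y` from the caps -/
theorem remove {n : ℕ} (c : Fin n → ℕ) (a : ℕ) : ∀ (R : ℕ) (y : Fin n → ℕ), ∑ j, y j = R →
    (∀ j, y j ≤ c j) → 2 * a + R ≤ ∑ j, c j →
    N c a * ∏ j, (c j - y j + 1) ≤ N (fun j => c j - y j) a * ∏ j, (c j + 1) := by
  intro R
  induction R with
  | zero =>
    intro y hy _ _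
    have h0 : ∀ j, y j = 0 := by
      intro j
      exact (sum_eq_zero_iff.1 hy) j (mem_univ j)
    have e : (fun j => c j - y j) = c := by
      funext j
      rw [h0 j, Nat.sub_zero]
    rw [e]
    apply le_of_eq
    congr 1
    refine prod_congr rfl fun j _ => ?_
    rw [h0 j, Nat.sub_zero]
  | succ R ih =>
    intro y hy hyc hR
    obtain ⟨i, hi⟩ : ∃ i, 1 ≤ y i := by
      by_contra hcon
      have hcon' : ∀ i, ¬ 1 ≤ y i := not_exists.1 hcon
      have : ∑ j, y j = 0 := sum_eq_zero fun j _ => by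
        have := hcon' j
        omega
      omega
    set y' := Function.update y i (y i - 1) with hy'
    have hy'i : y' i = y i - 1 := by rw [hy', Function.update_self]
    have hy'j : ∀ j, j ≠ i → y' j = y j := fun j hj => by rw [hy', Function.update_of_ne hj]
    have hsum' : ∑ j, y' j = R := by
      rw [← add_sum_erase univ y' (mem_univ i), hy'i]
      rw [← add_sum_erase univ y (mem_univ i)] at hy
      have : ∑ j ∈ univ.erase i, y' j = ∑ j ∈ univ.erase i, y j :=
        sum_congr rfl fun j hj => hy'j j (ne_of_mem_erase hj)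
      omega
    have hy'c : ∀ j, y' j ≤ c j := by
      intro j
      by_cases hj : j = i
      · subst hj
        have := hyc j
        omega
      · rw [hy'j j hj]
        exact hyc j
    have IH := ih y' hsum' hy'c (by omega)
    set b : Fin n → ℕ := fun j => c j - y' j with hb
    have hbi : b i = c i - y i + 1 := by
      have := hyc i
      simp only [hb, hy'i]
      omega
    have hbsum : ∑ j, b j + R = ∑ j, c j := by
      rw [← hsum', ← sum_add_distrib]
      refine sum_congr rfl fun j _ => ?_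
      have := hy'c j
      simp only [hb]
      omega
    have hu := unit_step b a i (by omega) (by omega)
    have e1 : Function.update b i (b i - 1) = fun j => c j - y j := by
      funext j
      by_cases hj : j = i
      · subst hj
        rw [Function.update_self, hbi]
        rfl
      · rw [Function.update_of_ne hj]
        simp only [hb, hy'j j hj]
    rw [e1] at hu
    have e2 : (∏ j, (c j - y j + 1)) * (b i + 1) = (∏ j, (b j + 1)) * b i := by
      rw [← mul_prod_erase univ (fun j => c j - y j + 1) (mem_univ i),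
        ← mul_prod_erase univ (fun j => b j + 1) (mem_univ i)]
      have e3 : ∏ j ∈ univ.erase i, (c j - y j + 1) = ∏ j ∈ univ.erase i, (b j + 1) := by
        refine prod_congr rfl fun j hj => ?_
        simp only [hb, hy'j j (ne_of_mem_erase hj)]
      rw [e3, ← hbi]
      ring
    have hpos : 0 < b i + 1 := Nat.succ_pos _
    refine Nat.le_of_mul_le_mul_right ?_ hpos
    calc (N c a * ∏ j, (c j - y j + 1)) * (b i + 1)
        = N c a * ((∏ j, (c j - y j + 1)) * (b i + 1)) := by ring
      _ = (N c a * ∏ j, (b j + 1)) * b i := by rw [e2]; ring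
      _ ≤ (N b a * ∏ j, (c j + 1)) * b i := Nat.mul_le_mul_right _ IH
      _ = (N b a * b i) * ∏ j, (c j + 1) := by ring
      _ ≤ (N (fun j => c j - y j) a * (b i + 1)) * ∏ j, (c j + 1) :=
          Nat.mul_le_mul_right _ hu
      _ = _ := by ring

theorem one_sub_sum_le_prod {ι : Type*} [DecidableEq ι] (T : Finset ι) (u : ι → ℝ)
    (h0 : ∀ i ∈ T, 0 ≤ u i) (h1 : ∀ i ∈ T, u i ≤ 1) :
    1 - ∑ i ∈ T, u i ≤ ∏ i ∈ T, (1 - u i) := by
  induction T using Finset.induction_on with
  | empty => simp
  | insert i T hi ih =>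
    rw [sum_insert hi, prod_insert hi]
    have ih' := ih (fun j hj => h0 j (mem_insert_of_mem hj)) (fun j hj => h1 j (mem_insert_of_mem hj))
    have hu0 := h0 i (mem_insert_self i T)
    have hu1 := h1 i (mem_insert_self i T)
    have hs : 0 ≤ ∑ j ∈ T, u j := sum_nonneg fun j hj => h0 j (mem_insert_of_mem hj)
    nlinarith [mul_le_mul_of_nonneg_left ih' (by linarith : (0 : ℝ) ≤ 1 - u i)]

theorem remove_real {n : ℕ} (c : Fin n → ℕ) (a : ℕ) (y : Fin n → ℕ)
    (hyc : ∀ j, y j ≤ c j) (h : 2 * a + ∑ j, y j ≤ ∑ j, c j) :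
    (1 - ∑ j, (y j : ℝ) / (c j + 1)) * N c a ≤ N (fun j => c j - y j) a := by
  have h1 := remove c a (∑ j, y j) y rfl hyc h
  have h1' : (N c a : ℝ) * ∏ j, (((c j - y j : ℕ) : ℝ) + 1) ≤
      N (fun j => c j - y j) a * ∏ j, ((c j : ℝ) + 1) := by
    have h2 := (Nat.cast_le (α := ℝ)).2 h1
    push_cast at h2
    exact_mod_cast h2
  have hpos : 0 < ∏ j, ((c j : ℝ) + 1) := prod_pos fun j _ => by positivity
  have e : ∏ j, (1 - (y j : ℝ) / (c j + 1)) = (∏ j, (((c j - y j : ℕ) : ℝ) + 1)) /
      ∏ j, ((c j : ℝ) + 1) := by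
    rw [← prod_div_distrib]
    refine prod_congr rfl fun j _ => ?_
    have hc : (0 : ℝ) < (c j : ℝ) + 1 := by positivity
    rw [Nat.cast_sub (hyc j)]
    field_simp
    ring
  have h3 : 1 - ∑ j, (y j : ℝ) / (c j + 1) ≤ ∏ j, (1 - (y j : ℝ) / (c j + 1)) := by
    apply one_sub_sum_le_prod
    · intro j _
      positivity
    · intro j _
      rw [div_le_one (by positivity)]
      have : (y j : ℝ) ≤ c j := by exact_mod_cast hyc j
      linarith
  have hN : (0 : ℝ) ≤ N c a := Nat.cast_nonneg _
  calc (1 - ∑ j, (y j : ℝ) / (c j + 1)) * N c a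
      ≤ (∏ j, (1 - (y j : ℝ) / (c j + 1))) * N c a := mul_le_mul_of_nonneg_right h3 hN
    _ = (N c a * ∏ j, (((c j - y j : ℕ) : ℝ) + 1)) / ∏ j, ((c j : ℝ) + 1) := by
        rw [e]; ring
    _ ≤ N (fun j => c j - y j) a := by
        rw [div_le_iff₀ hpos]
        exact h1'

end Vale.Agent.P328b
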