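import Vale.Agent.P328b.Key
import Vale.Agent.P328b.Avg
import Vale.Agent.P328b.Bij

/-! # P328: acceptance probability with two large rows -/

namespace Vale.Agent.P328b

open Finset

theorem card_two {n : ℕ} (c : Fin n → ℕ) (a s : ℕ) (h : a + s = ∑ j, c j) (y : Fin n → ℕ)
    (hy : ∀ j, y j ≤ c j) :
    ((tables ![a, s] c).filter (fun Z => ∀ j, y j ≤ Z 1 j)).card = N (fun j => c j - y j) a := by
  rw [N_eq_card]
  refine card_bij' (fun Z _ => Z 0) (fun x _ => ![x, fun j => c j - x j]) ?_ ?_ ?_ ?_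
  · intro Z hZ
    rw [mem_filter, mem_tables] at hZ
    obtain ⟨⟨hr, hc⟩, hyZ⟩ := hZ
    rw [mem_filter, Fintype.mem_piFinset]
    constructor
    · intro j
      have h1 := hc j
      rw [Fin.sum_univ_two] at h1
      have h2 := hyZ j
      rw [mem_range]
      omega
    · have := hr 0
      simpa using this
  · intro x hx
    rw [mem_filter, Fintype.mem_piFinset] at hx
    obtain ⟨hx1, hx2⟩ := hx
    have hxc : ∀ j, x j ≤ c j - y j := fun j => by
      have := hx1 j
      rw [mem_range] at this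
      omega
    have hxc' : ∀ j, x j ≤ c j := fun j => (hxc j).trans (Nat.sub_le _ _)
    have hs : ∑ j, (c j - x j) = s := by
      have h3 : ∑ j, (c j - x j) + ∑ j, x j = ∑ j, c j := by
        rw [← sum_add_distrib]
        exact sum_congr rfl fun j _ => Nat.sub_add_cancel (hxc' j)
      omega
    rw [mem_filter, mem_tables]
    refine ⟨⟨?_, ?_⟩, ?_⟩
    · intro i
      fin_cases i
      · simpa using hx2
      · simpa using hs
    · intro j
      rw [Fin.sum_univ_two]
      have := hxc' j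
      simp only [Matrix.cons_val_zero, Matrix.cons_val_one]
      omega
    · intro j
      have h4 := hxc j
      have h5 := hy j
      show y j ≤ c j - x j
      omega
  · intro Z hZ
    rw [mem_filter, mem_tables] at hZ
    obtain ⟨⟨hr, hc⟩, hyZ⟩ := hZ
    funext i j
    fin_cases i
    · rfl
    · have h1 := hc j
      rw [Fin.sum_univ_two] at h1
      show c j - Z 0 j = Z 1 j
      omega
  · intro x _
    rfl

theorem card_two_all {n : ℕ} (c : Fin n → ℕ) (a s : ℕ) (h : a + s = ∑ j, c j) :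
    (tables ![a, s] c).card = N c a := by
  have h1 := card_two c a s h (fun _ => 0) (fun _ => Nat.zero_le _)
  have h2 : (tables ![a, s] c).filter (fun Z => ∀ j : Fin n, (fun _ => 0 : Fin n → ℕ) j ≤ Z 1 j) =
      tables ![a, s] c := filter_true_of_mem fun Z _ j => Nat.zero_le _
  rw [h2] at h1
  exact h1

theorem card_accepted {m n : ℕ} (r : Fin (m + 2) → ℕ) (c : Fin n → ℕ) :
    (accepted r c).card = ∑ Y ∈ Fintype.piFinset (fun k : Fin m => comps n (r k.succ.succ)),
      ((tables ![r 0, r 1 + ∑ k : Fin m, r k.succ.succ] c).filter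
        (fun Z => ∀ j, ∑ k, Y k j ≤ Z 1 j)).card := by
  unfold accepted proposals
  rw [card_filter, sum_product_right]
  refine sum_congr rfl fun Y _ => ?_
  rw [card_filter]

theorem accepted_ge {m n : ℕ} (r : Fin (m + 2) → ℕ) (c : Fin n → ℕ)
    (h : ∑ i, r i = ∑ j, c j) (h01 : r 0 ≤ r 1) :
    (1 - ((∑ k : Fin m, r k.succ.succ : ℕ) : ℝ) / n * ∑ j, 1 / ((c j : ℝ) + 1)) *
      ((proposals r c).card : ℝ) ≤ ((accepted r c).card : ℝ) := by
  set R := ∑ k : Fin m, r k.succ.succ with hR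
  have hsum : r 0 + (r 1 + R) = ∑ j, c j := by
    rw [← h, Fin.sum_univ_succ, Fin.sum_univ_succ]
    rfl
  set 𝒴 := Fintype.piFinset (fun k : Fin m => comps n (r k.succ.succ)) with h𝒴
  have hone : ∀ Y ∈ 𝒴, (1 - ∑ j, ((∑ k, Y k j : ℕ) : ℝ) / (c j + 1)) * N c (r 0) ≤
      (((tables ![r 0, r 1 + R] c).filter (fun Z => ∀ j, ∑ k, Y k j ≤ Z 1 j)).card : ℝ) := by
    intro Y hY
    rw [h𝒴, Fintype.mem_piFinset] at hY
    have hYsum : ∑ j, ∑ k, Y k j = R := by
      rw [sum_comm, hR]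
      exact sum_congr rfl fun k _ => (mem_comps _ _ _).1 (hY k)
    by_cases hyc : ∀ j, ∑ k, Y k j ≤ c j
    · rw [card_two c (r 0) (r 1 + R) hsum (fun j => ∑ k, Y k j) hyc]
      exact remove_real c (r 0) (fun j => ∑ k, Y k j) hyc (by rw [hYsum]; omega)
    · obtain ⟨j0, hj0⟩ := not_forall.1 hyc
      have h1 : (1 : ℝ) ≤ ∑ j, ((∑ k, Y k j : ℕ) : ℝ) / (c j + 1) := by
        have h2 : (1 : ℝ) ≤ ((∑ k, Y k j0 : ℕ) : ℝ) / (c j0 + 1) := by
          rw [one_le_div (by positivity)]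
          have h3 : c j0 + 1 ≤ ∑ k, Y k j0 := by omega
          exact_mod_cast h3
        exact h2.trans (single_le_sum (f := fun j => ((∑ k, Y k j : ℕ) : ℝ) / ((c j : ℝ) + 1))
          (fun j _ => by positivity) (mem_univ j0))
      have h4 : (0 : ℝ) ≤ N c (r 0) := Nat.cast_nonneg _
      have h5 : (0 : ℝ) ≤ (((tables ![r 0, r 1 + R] c).filter
        (fun Z => ∀ j, ∑ k, Y k j ≤ Z 1 j)).card : ℝ) := Nat.cast_nonneg _
      nlinarith
  have hcard : ((proposals r c).card : ℝ) = N c (r 0) * 𝒴.card := by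
    unfold proposals
    rw [card_product, card_two_all c (r 0) (r 1 + R) hsum]
    push_cast
    rfl
  have hacc : ((accepted r c).card : ℝ) = ∑ Y ∈ 𝒴,
      (((tables ![r 0, r 1 + R] c).filter (fun Z => ∀ j, ∑ k, Y k j ≤ Z 1 j)).card : ℝ) := by
    rw [card_accepted]
    push_cast
    rfl
  rw [hcard, hacc]
  refine le_trans (le_of_eq ?_) (sum_le_sum hone)
  rw [← sum_mul]
  have havg : ∀ j : Fin n, ∑ Y ∈ 𝒴, ((∑ k, Y k j : ℕ) : ℝ) = (R : ℝ) / n * 𝒴.card := by
    intro j
    have hn : (n : ℝ) ≠ 0 := by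
      have : 0 < n := Nat.pos_of_ne_zero fun h0 => by
        subst h0
        exact j.elim0
      positivity
    have h1 := avg m n (fun k => r k.succ.succ) j
    have h2 := congrArg (Nat.cast (R := ℝ)) h1
    push_cast at h2
    field_simp
    rw [hR, h𝒴]
    push_cast
    linarith
  have e : ∑ Y ∈ 𝒴, (1 - ∑ j, ((∑ k, Y k j : ℕ) : ℝ) / (c j + 1)) =
      𝒴.card * (1 - (R : ℝ) / n * ∑ j, 1 / ((c j : ℝ) + 1)) := by
    rw [sum_sub_distrib, sum_const, nsmul_eq_mul, mul_one, sum_comm]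
    have e1 : ∀ j : Fin n, ∑ Y ∈ 𝒴, ((∑ k, Y k j : ℕ) : ℝ) / (c j + 1) =
        (R : ℝ) / n * 𝒴.card * (1 / ((c j : ℝ) + 1)) := by
      intro j
      rw [← sum_div, havg j]
      ring
    rw [sum_congr rfl fun j _ => e1 j, ← mul_sum]
    ring
  rw [e]
  ring

end Vale.Agent.P328b
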